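import Mathlib
import Vale.Agent.Helper2.ITDefs
import Vale.Agent.Helper2.ITMain
import Vale.Agent.Helper2.ITCorner

/-!
# P176: Igusa-Todorov algebras and their corner rings have finite finitistic dimension

Let `A` be a left Artinian ring (for instance an Artin algebra or a finite-dimensional algebra
over a field), `n` a natural number and `V` a finitely generated module.

(a) Suppose every finitely generated module `M` of finite projective dimension has an `n`-th
syzygy `K` which fits into a short exact sequence `0 → V₁ → V₀ → K → 0` with `V₀` and `V₁` in
`add V` (direct summands of finite direct sums of copies of `V`).  Then the finitistic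
dimension of `A` is finite: there is `d` such that every finitely generated module of finite
projective dimension has projective dimension at most `d`.

(b) Suppose `n ≤ 2` and every finitely generated module `M` has such an `n`-th syzygy.  Then
for every idempotent `e` of `A` the finitistic dimension of the corner ring `eAe` is finite.
For `n = 0` the hypothesis holds when `A` has representation dimension at most three (take
for `V` an Auslander generator), and for `n = 2`, `V = A` when `A` has global dimension at
most three.

The proof of (a) formalises the Igusa-Todorov lemma (helper modules `Helper2/Indec`,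
`Helper2/Syz`, `Helper2/ITFitting`, `Helper2/ITMain`): a weak Krull-Schmidt theorem for modules
of finite length, Schanuel's lemma and the horseshoe construction for syzygies, a stabilising
chain of subgroups of a finitely generated free abelian group, and a Fitting-lemma argument on
Ext.  The proof of (b) (helper module `Helper2/ITCorner`) lifts a module over `eAe` to a module
over `A` and applies the exact functor `Z ↦ eZ` to a two-term resolution of a second syzygy.
-/

universe u

open CategoryTheory Vale.Agent.Helper2.IT

namespace Vale.Agent.Results.P176.IgusaTodorovAlgebra

theorem result {A : Type u} [Ring A] [IsArtinianRing A] (n : ℕ) (V : ModuleCat.{u} A)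
    (hV : Module.Finite A V) :
    ((∀ M : ModuleCat.{u} A, Module.Finite A M → (∃ m, HasProjectiveDimensionLE M m) →
        ∃ (K V₁ V₀ : ModuleCat.{u} A) (i : V₁ →ₗ[A] V₀) (p : V₀ →ₗ[A] K),
          IsSyz n M K ∧ IsSES i p ∧ InAdd V V₁ ∧ InAdd V V₀) →
      ∃ d : ℕ, ∀ M : ModuleCat.{u} A, Module.Finite A M →
        (∃ m, HasProjectiveDimensionLE M m) → HasProjectiveDimensionLE M d) ∧
    (n ≤ 2 →
      (∀ M : ModuleCat.{u} A, Module.Finite A M →
        ∃ (K V₁ V₀ : ModuleCat.{u} A) (i : V₁ →ₗ[A] V₀) (p : V₀ →ₗ[A] K),
          IsSyz n M K ∧ IsSES i p ∧ InAdd V V₁ ∧ InAdd V V₀) →
      ∀ (e : A) (he : IsIdempotentElem e), ∃ d : ℕ, ∀ X : ModuleCat.{u} he.Corner,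
        Module.Finite he.Corner X → (∃ m, HasProjectiveDimensionLE X m) →
          HasProjectiveDimensionLE X d) :=
  ⟨fun h => it_algebra_bound n V hV h,
    fun hn h _ he => corner_it_bound he V hV n hn h⟩

end Vale.Agent.Results.P176.IgusaTodorovAlgebra
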