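import Mathlib
import Vale.Agent.Helper2.ITHLM
import Vale.Agent.Helper2.ITXiSub
import Vale.Agent.Helper2.ITIdeals

/-!
# P176: four classes of rings with finite finitistic dimension

Let `A` be a left Artinian ring (for instance an Artin algebra or a finite-dimensional algebra
over a field) with Jacobson radical `J`.  Below, the finitistic dimension of a ring `R` is
finite if there is `d` such that every finitely generated left `R`-module of finite projective
dimension has projective dimension at most `d`.

1. (Huard, Lanzilotta, Mendoza.)  The radical layers of `A` are the semisimple left modules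
   `J^i / J^(i+1)`, `i ≥ 0`, written below as the image of the ideal `J^i` in the quotient
   module `A / J^(i+1)`.  If at most three radical layers of `A` have infinite projective
   dimension, then the finitistic dimension of `A` is finite.  If `J^3 = 0` only the layers
   `0, 1, 2` are nonzero, so this contains the case of radical cube zero.

2. (Xi.)  If every `A`-module has projective dimension at most three, then the finitistic
   dimension of the corner ring `eAe` is finite for every idempotent `e` of `A`.

3. (Xi.)  Let `C ⊆ B ⊆ A` be subrings such that `C` is left Artinian, `B` is finitely generated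
   as a left `C`-module and `A` as a left `B`-module, the radical of `C` is a left ideal of `B`
   and the radical of `B` is a left ideal of `A`.  If `A` is representation-finite, that is,
   every finitely generated `A`-module is a direct summand of a finite direct sum of copies of
   one finitely generated module `V`, then the finitistic dimension of `C` is finite.

4. (Xi.)  Let `I₁`, `I₂` be two-sided ideals of `A` with `I₁ I₂ J = 0` such that `A / I₁` and
   `A / I₂` are representation-finite, that is, for `k = 1, 2` every finitely generated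
   `A`-module annihilated by `I_k` is a direct summand of a finite direct sum of copies of one
   finitely generated module `V_k`.  Then the finitistic dimension of `A` is finite.  For
   `I₁ = I₂ = J^n` this is the case `J^(2n+1) = 0`, `A / J^n` representation-finite.

The proofs are in the helper modules `Helper2/ITHLM`, `Helper2/ITXiSub` and `Helper2/ITIdeals`;
they show that the ring in question is an Igusa-Todorov algebra and use the formalised
Igusa-Todorov lemma.
-/

universe u

open CategoryTheory Vale.Agent.Helper2.IT

namespace Vale.Agent.Results.P176.InfiniteLayers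

theorem result {A : Type u} [Ring A] [IsArtinianRing A] :
    ((∃ s : Finset ℕ, s.card ≤ 3 ∧ ∀ i : ℕ, i ∉ s →
        ∃ n : ℕ, HasProjectiveDimensionLE (ModuleCat.of A ↥(Submodule.map
          (Submodule.mkQ (Ring.jacobson A ^ (i + 1))) (Ring.jacobson A ^ i))) n) →
      ∃ d : ℕ, ∀ M : ModuleCat.{u} A, Module.Finite A M →
        (∃ m, HasProjectiveDimensionLE M m) → HasProjectiveDimensionLE M d) ∧
    ((∀ M : ModuleCat.{u} A, HasProjectiveDimensionLE M 3) →
      ∀ (e : A) (he : IsIdempotentElem e), ∃ d : ℕ, ∀ X : ModuleCat.{u} he.Corner,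
        Module.Finite he.Corner X → (∃ m, HasProjectiveDimensionLE X m) →
          HasProjectiveDimensionLE X d) ∧
    (∀ (B : Subring A) (C : Subring B) [IsArtinianRing C] [Module.Finite C B]
      [Module.Finite B A],
      (∀ (b : B) (r : C), r ∈ Ring.jacobson C →
        ∃ r' : C, r' ∈ Ring.jacobson C ∧ (r' : B) = b * r) →
      (∀ (a : A) (r : B), r ∈ Ring.jacobson B →
        ∃ r' : B, r' ∈ Ring.jacobson B ∧ (r' : A) = a * r) →
      (∃ V : ModuleCat.{u} A, Module.Finite A V ∧ ∀ M : ModuleCat.{u} A, Module.Finite A M →
        ∃ (m : ℕ) (i : M →ₗ[A] (Fin m → V)) (p : (Fin m → V) →ₗ[A] M),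
          p ∘ₗ i = LinearMap.id) →
      ∃ d : ℕ, ∀ M : ModuleCat.{u} C, Module.Finite C M →
        (∃ m, HasProjectiveDimensionLE M m) → HasProjectiveDimensionLE M d) ∧
    (∀ (I₁ I₂ : Ideal A) [I₁.IsTwoSided] [I₂.IsTwoSided],
      (∀ a ∈ I₁, ∀ b ∈ I₂, ∀ c ∈ Ring.jacobson A, a * b * c = 0) →
      (∃ V : ModuleCat.{u} A, Module.Finite A V ∧ ∀ M : ModuleCat.{u} A, Module.Finite A M →
        (∀ a ∈ I₁, ∀ x : M, a • x = 0) →
        ∃ (m : ℕ) (i : M →ₗ[A] (Fin m → V)) (p : (Fin m → V) →ₗ[A] M),
          p ∘ₗ i = LinearMap.id) →
      (∃ V : ModuleCat.{u} A, Module.Finite A V ∧ ∀ M : ModuleCat.{u} A, Module.Finite A M →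
        (∀ b ∈ I₂, ∀ x : M, b • x = 0) →
        ∃ (m : ℕ) (i : M →ₗ[A] (Fin m → V)) (p : (Fin m → V) →ₗ[A] M),
          p ∘ₗ i = LinearMap.id) →
      ∃ d : ℕ, ∀ M : ModuleCat.{u} A, Module.Finite A M →
        (∃ m, HasProjectiveDimensionLE M m) → HasProjectiveDimensionLE M d) :=
  ⟨fun ⟨s, hs, h⟩ => hlm_bound s hs h,
    fun hgl e he => corner_gldim_three hgl e he,
    fun B C _ _ _ hradC hradB ⟨V, hV, hfin⟩ => chain_bound B C hradC hradB V hV hfin,
    fun I₁ I₂ _ _ hI ⟨V₁, hV₁, h₁⟩ ⟨V₂, hV₂, h₂⟩ => ideals_bound I₁ I₂ hI V₁ V₂ hV₁ hV₂ h₁ h₂⟩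

end Vale.Agent.Results.P176.InfiniteLayers
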