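import Mathlib
import Vale.Agent.Helper2.Delooping
import Vale.Agent.Helper2.RkMain

/-!
# P176: injective generation, delooping levels and the finitistic dimension

Let `A` be a finite-dimensional algebra over a field `k`.

1. (J. Rickard, 2019.)  Suppose that the injective `A`-modules generate the unbounded derived
   category `D(Mod A)` as a localizing subcategory: every triangulated, isomorphism-closed class
   of objects of `D(Mod A)` that is closed under set-indexed coproducts and contains all
   injective modules (as complexes concentrated in degree `0`) is everything.  Then the big
   finitistic dimension of `A` is finite: there is `d` such that every `A`-module of finite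
   projective dimension has projective dimension at most `d`.  The proof is in
   `Vale.Agent.Helper2.RkMain`.

2. (V. Gelinas, 2022.)  If every simple right `A`-module (a simple left module over the
   opposite ring) has delooping level at most `d`, then every finitely generated left
   `A`-module of finite projective dimension has projective dimension at most `d`, that is,
   `findim A ≤ dell (A^op)`.  The definitions and the proof are in
   `Vale.Agent.Helper2.Delooping`.
-/

universe w u

open CategoryTheory Vale.Agent.Helper2.Delooping

namespace Vale.Agent.Results.P176.InjectivesGenerate

/-- **Injective generation and delooping levels bound the finitistic dimension.**  Let `A` be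
a finite-dimensional algebra over a field `k`.  (1) If the injective modules generate the
unbounded derived category of `A`-modules as a localizing subcategory, then there is `d` such
that every `A`-module of finite projective dimension has projective dimension at most `d`.
(2) If every simple module over the opposite ring has delooping level at most `d`, then every
finitely generated `A`-module of finite projective dimension has projective dimension at most
`d`. -/
theorem result {k : Type u} [Field k] {A : Type u} [Ring A] [Algebra k A] [FiniteDimensional k A]
    [HasDerivedCategory.{w} (ModuleCat.{u} A)] :
    ((∀ (P : ObjectProperty (DerivedCategory (ModuleCat.{u} A))) [P.IsTriangulated]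
        [P.IsClosedUnderIsomorphisms],
        (∀ (J : Type u) (X : J → DerivedCategory (ModuleCat.{u} A)) (c : Limits.Cofan X),
          Limits.IsColimit c → (∀ j, P (X j)) → P c.pt) →
        (∀ I : ModuleCat.{u} A, Injective I →
          P ((DerivedCategory.singleFunctor (ModuleCat.{u} A) 0).obj I)) →
        ∀ X, P X) →
      ∃ d : ℕ, ∀ M : ModuleCat.{u} A,
        (∃ m : ℕ, HasProjectiveDimensionLE M m) → HasProjectiveDimensionLE M d) ∧
    (∀ d : ℕ,
      (∀ (T : Type u) [AddCommGroup T] [Module Aᵐᵒᵖ T] [IsSimpleModule Aᵐᵒᵖ T],
        DeloopingLevelLE (ModuleCat.of Aᵐᵒᵖ T) d) →
      ∀ (M : ModuleCat.{u} A) [Module.Finite A M] (n : ℕ),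
        HasProjectiveDimensionLE M n → HasProjectiveDimensionLE M d) :=
  ⟨fun hgen => Vale.Agent.Helper2.Rk.findim_of_injectives_generate A k hgen,
    fun d hd M _ n hM => projectiveDimension_le_of_delooping (k := k) d hd M n hM⟩

end Vale.Agent.Results.P176.InjectivesGenerate
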