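import Mathlib
import Vale.Agent.Helper2.Sym
import Vale.Agent.Helper2.VertexRemovalAux

/-!
# P176: reduction theorems for the finitistic dimension conjecture

Throughout, `FindimLE X d` says that every finitely generated left `X`-module of finite
projective dimension has projective dimension at most `d`, that is `findim X ≤ d`.

The theorem `result` has three parts.

(a) For every finite-dimensional algebra `A` over a field `k` there is a finite-dimensional
`k`-algebra `B` with `findim B = 0` and `findim A ≤ findim Bᵐᵒᵖ`.  Here `B` is the triangular
algebra with diagonal entries in the dual numbers `k[ε]` and in `Aᵐᵒᵖ`, and off-diagonal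
entries in the bimodule `Aᵐᵒᵖ / rad`.  The elements `ε` and the class of `1` in the bimodule
kill the radical of `B` from the left and their common right annihilator is the radical, so
no nonzero finitely generated projective `B`-module embeds in the radical of a projective
module; hence finite projective dimension forces projectivity.  On the other side, `A` is a
projective module over `Bᵐᵒᵖ` through the surjection `Bᵐᵒᵖ → A`, so restriction of scalars
along it preserves and reflects projective dimensions.

(b) Consequently the finitistic dimension conjecture for all finite-dimensional `k`-algebras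
is equivalent to the left-right symmetry of finiteness of the finitistic dimension (a theorem
of C. Cummings, 2024).

(c) A vertex-removal bound: for a left Artinian ring `A` and an idempotent `e` such that all
simple modules killed by `e` have injective dimension at most `d`,
`findim A ≤ findim (eAe) + d + 1`.
-/

universe u

open CategoryTheory

namespace Vale.Agent.Results.P176.Reductions

/-- `FindimLE X d`: every finitely generated left `X`-module of finite projective dimension
has projective dimension at most `d`; in other words the little finitistic dimension of the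
ring `X` is at most `d`. -/
def FindimLE (X : Type u) [Ring X] (d : ℕ) : Prop :=
  ∀ M : ModuleCat.{u} X, Module.Finite X M →
    (∃ m : ℕ, HasProjectiveDimensionLE M m) → HasProjectiveDimensionLE M d

theorem result :
    (∀ (k : Type u) [Field k] (A : Type u) [Ring A] [Algebra k A] [Module.Finite k A],
      ∃ (B : Type u) (_ : Ring B) (_ : Algebra k B), Module.Finite k B ∧ FindimLE B 0 ∧
        ∀ d : ℕ, FindimLE Bᵐᵒᵖ d → FindimLE A d) ∧
    (∀ (k : Type u) [Field k],
      (∀ (A : Type u) [Ring A] [Algebra k A] [Module.Finite k A], ∃ d : ℕ, FindimLE A d) ↔
      (∀ (Λ : Type u) [Ring Λ] [Algebra k Λ] [Module.Finite k Λ],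
        (∃ d : ℕ, FindimLE Λ d) → ∃ d : ℕ, FindimLE Λᵐᵒᵖ d)) ∧
    (∀ (A : Type u) [Ring A] [IsArtinianRing A] (e : A) (he : IsIdempotentElem e) (d m : ℕ),
      (∀ (T : Type u) [AddCommGroup T] [Module A T] [IsSimpleModule A T],
        (∀ t : T, e • t = 0) → HasInjectiveDimensionLE (ModuleCat.of A T) d) →
      FindimLE he.Corner m → FindimLE A (m + d + 1)) := by
  refine ⟨?_, ?_, ?_⟩
  · intro k _ A _ _ _
    exact ⟨Helper2.Sym.TB k Aᵐᵒᵖ, inferInstance, inferInstance, inferInstance,
      Helper2.Sym.findim_zero k A, fun d hd => Helper2.Sym.findimLE_of_op k A d hd⟩
  · intro k _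
    constructor
    · intro h Λ _ _ _ _
      exact h Λᵐᵒᵖ
    · intro hsym A _ _ _
      obtain ⟨d, hd⟩ := hsym (Helper2.Sym.TB k Aᵐᵒᵖ) ⟨0, Helper2.Sym.findim_zero k A⟩
      exact ⟨d, Helper2.Sym.findimLE_of_op k A d hd⟩
  · intro A _ _ e he d m hgood hcorner M hM hm
    obtain ⟨n, hn⟩ := hm
    exact Helper2.VertexRemovalAux.vertex_removal e he d m hgood
      (fun N _ n hN => hcorner N inferInstance ⟨n, hN⟩) M n hn

end Vale.Agent.Results.P176.Reductions
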